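import Vale.Agent.P246.R3.H816.Defs

/-! # P246.FreeFactor: base change and augmentation -/

namespace Vale.Agent.P246.H816

open Vale.Agent.P246 CategoryTheory Function

section Ring

variable {R S : Type} [Ring R] [Ring S]

theorem vec_sum {a : ℕ} (x : Fin a → R) : x = ∑ i, x i • (Pi.single i 1 : Fin a → R) := by
  funext k
  rw [Finset.sum_apply]
  simp [Pi.single_apply]

theorem lin_sum {a : ℕ} {N : Type} [AddCommGroup N] [Module R N] (M : (Fin a → R) →ₗ[R] N)
    (x : Fin a → R) : M x = ∑ i, x i • M (Pi.single i 1) := by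
  conv_lhs => rw [vec_sum x]
  rw [map_sum]
  refine Finset.sum_congr rfl fun i _ => ?_
  rw [map_smul]

/-- semilinear maps out of a free module -/
theorem semi_sum {φ : R →+* S} {a : ℕ} {N : Type} [AddCommGroup N] [Module S N]
    (q : (Fin a → R) →+ N) (hq : ∀ s v, q (s • v) = φ s • q v) (x : Fin a → R) :
    q x = ∑ i, φ (x i) • q (Pi.single i 1) := by
  conv_lhs => rw [vec_sum x]
  rw [map_sum]
  refine Finset.sum_congr rfl fun i _ => ?_
  rw [hq]

theorem semi_zero {φ : R →+* S} {a : ℕ} {N : Type} [AddCommGroup N] [Module S N]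
    (q : (Fin a → R) →+ N) (hq : ∀ s v, q (s • v) = φ s • q v) (x : Fin a → R)
    (hx : ∀ i, φ (x i) = 0) : q x = 0 := by
  rw [semi_sum q hq]
  refine Finset.sum_eq_zero fun i _ => ?_
  rw [hx, zero_smul]

theorem up_apply (φ : R →+* S) {a b : ℕ} (M : (Fin a → R) →ₗ[R] (Fin b → R)) (v : Fin a → S)
    (k : Fin b) : up φ M v k = ∑ i, v i * φ (M (Pi.single i 1) k) := by
  rw [up, Fintype.linearCombination_apply, Finset.sum_apply]
  rfl

theorem up_map (φ : R →+* S) {a b : ℕ} (M : (Fin a → R) →ₗ[R] (Fin b → R)) (x : Fin a → R) :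
    up φ M (fun i => φ (x i)) = fun k => φ (M x k) := by
  funext k
  rw [up_apply, lin_sum M x, Finset.sum_apply, map_sum]
  refine Finset.sum_congr rfl fun i _ => ?_
  rw [Pi.smul_apply, smul_eq_mul, map_mul]

/-- composition with a retraction -/
theorem up_down (φ : R →+* S) (ψ : S →+* R) (h : ∀ r, ψ (φ r) = r) {a b : ℕ}
    (M : (Fin a → R) →ₗ[R] (Fin b → R)) (v : Fin a → S) :
    (fun k => ψ (up φ M v k)) = M fun i => ψ (v i) := by
  funext k
  rw [up_apply, lin_sum M, Finset.sum_apply, map_sum]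
  refine Finset.sum_congr rfl fun i _ => ?_
  rw [Pi.smul_apply, smul_eq_mul, map_mul, h]

theorem up_comp (φ : R →+* S) {a b c : ℕ} (M : (Fin a → R) →ₗ[R] (Fin b → R))
    (N : (Fin b → R) →ₗ[R] (Fin c → R)) (v : Fin a → S) :
    up φ N (up φ M v) = up φ (N ∘ₗ M) v := by
  rw [lin_sum (up φ M), map_sum, lin_sum (up φ (N ∘ₗ M))]
  refine Finset.sum_congr rfl fun i _ => ?_
  rw [map_smul]
  congr 1
  have h1 : ∀ (d : ℕ) (K : (Fin a → R) →ₗ[R] (Fin d → R)),
      up φ K (Pi.single i 1) = fun k => φ (K (Pi.single i 1) k) := by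
    intro d K
    rw [← up_map φ K]
    congr 1
    funext k
    rcases eq_or_ne k i with rfl | hk
    · rw [Pi.single_eq_same, Pi.single_eq_same, map_one]
    · rw [Pi.single_eq_of_ne hk, Pi.single_eq_of_ne hk, map_zero]
  rw [h1, h1, up_map]
  rfl

theorem up_zero (φ : R →+* S) {a b : ℕ} (v : Fin a → S) :
    up φ (0 : (Fin a → R) →ₗ[R] (Fin b → R)) v = 0 := by
  funext k
  rw [up_apply]
  refine Finset.sum_eq_zero fun i _ => ?_
  rw [LinearMap.zero_apply, Pi.zero_apply, map_zero, mul_zero]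

end Ring

section Group

variable {G H : Type} [Group G] [Group H]

theorem rh_elt (φ : G →* H) (g : G) : rh φ (elt g) = elt (φ g) := by
  simp [rh, elt]

theorem elt_mul (g h : G) : (elt (g * h) : ZG G) = elt g * elt h := by
  rw [elt, elt, elt, MonoidAlgebra.single_mul_single, one_mul]

theorem elt_one' : (elt (1 : G) : ZG G) = 1 := rfl

/-- The augmentation `ℤ[G] → ℤ`. -/
noncomputable def aug (G : Type) [Group G] : ZG G →+* ℤ :=
  (MonoidAlgebra.lift ℤ ℤ G (1 : G →* ℤ)).toRingHom

theorem aug_elt (g : G) : aug G (elt g) = 1 := by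
  simp [aug, elt]

theorem zg_induction {P : ZG G → Prop} (h1 : ∀ g, P (elt g)) (h2 : ∀ x y, P x → P y → P (x + y))
    (h3 : ∀ x, P x → P (-x)) (h0 : P 0) (x : ZG G) : P x := by
  have hn : ∀ (n : ℕ) (g : G), P ((n : ℤ) • elt g) := by
    intro n g
    induction n with
    | zero => simpa using h0
    | succ n ih =>
      rw [Nat.cast_succ, add_smul, one_smul]
      exact h2 _ _ ih (h1 g)
  have hz : ∀ (n : ℤ) (g : G), P (n • elt g) := by
    intro n g
    obtain ⟨m, rfl | rfl⟩ := n.eq_nat_or_neg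
    · exact hn m g
    · rw [neg_smul]; exact h3 _ (hn m g)
  induction x using MonoidAlgebra.induction_linear with
  | zero => exact h0
  | add f g hf hg => exact h2 _ _ hf hg
  | single g n =>
    have h4 : (MonoidAlgebra.single g n : ZG G) = n • elt g := by
      rw [elt, MonoidAlgebra.smul_single, smul_eq_mul, mul_one]
    rw [h4]
    exact hz n g

theorem eps_smul {M : Type} [AddCommGroup M] [Module (ZG G) M] (ε : M →+ ℤ)
    (h : ∀ (g : G) (x : M), ε (elt g • x) = ε x) (u : ZG G) (x : M) : ε (u • x) = aug G u * ε x := by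
  induction u using zg_induction with
  | h1 g => rw [h, aug_elt, one_mul]
  | h2 a b ha hb => rw [add_smul, map_add, ha, hb, map_add, add_mul]
  | h3 a ha => rw [neg_smul, map_neg, ha, map_neg, neg_mul]
  | h0 => simp

theorem aug_rh (φ : G →* H) (x : ZG G) : aug H (rh φ x) = aug G x := by
  induction x using zg_induction with
  | h1 g => rw [rh_elt, aug_elt, aug_elt]
  | h2 a b ha hb => rw [map_add, map_add, map_add, ha, hb]
  | h3 a ha => rw [map_neg, map_neg, map_neg, ha]
  | h0 => simp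

theorem rh_rh (ι : G →* H) (ρ : H →* G) (h : ∀ g, ρ (ι g) = g) (x : ZG G) :
    rh ρ (rh ι x) = x := by
  induction x using zg_induction with
  | h1 g => rw [rh_elt, rh_elt, h]
  | h2 a b ha hb => rw [map_add, map_add, ha, hb]
  | h3 a ha => rw [map_neg, map_neg, ha]
  | h0 => simp

/-- the augmentation ideal is generated by the `x_i - 1` -/
theorem aug_gen (P : FinPresentation G) (u : ZG G) :
    aug G u = 0 ↔ ∃ z : Fin P.gens → ZG G, foxD1 P z = u := by
  have hgen : ∀ g : G, elt g - 1 ∈ LinearMap.range (foxD1 P) := by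
    intro g
    obtain ⟨w, rfl⟩ := P.surj g
    induction w using FreeGroup.induction_on with
    | C1 =>
      rw [map_one, elt_one', sub_self]
      exact Submodule.zero_mem _
    | of i =>
      refine ⟨Pi.single i 1, ?_⟩
      rw [FreeGroup.lift_apply_of]
      simp [foxD1, Fintype.linearCombination_apply_single]
    | inv_of i ih =>
      have h : elt (FreeGroup.lift P.x (FreeGroup.of i)⁻¹) - 1 =
          -(elt (FreeGroup.lift P.x (FreeGroup.of i))⁻¹ *
            (elt (FreeGroup.lift P.x (FreeGroup.of i)) - 1)) := by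
        rw [map_inv, mul_sub, ← elt_mul, inv_mul_cancel, elt_one']
        rw [mul_one]; abel
      rw [h]
      exact Submodule.neg_mem _ (Submodule.smul_mem _ _ ih)
    | mul x y hx hy =>
      have h : elt (FreeGroup.lift P.x (x * y)) - 1 =
          elt (FreeGroup.lift P.x x) * (elt (FreeGroup.lift P.x y) - 1) +
            (elt (FreeGroup.lift P.x x) - 1) := by
        rw [map_mul, mul_sub, ← elt_mul, mul_one]; abel
      rw [h]
      exact Submodule.add_mem _ (Submodule.smul_mem _ _ hy) hx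
  constructor
  · intro hu
    have key : ∀ u : ZG G, u - ((aug G u : ℤ) : ZG G) ∈ LinearMap.range (foxD1 P) := by
      intro u
      induction u using zg_induction with
      | h1 g =>
        rw [aug_elt, Int.cast_one]
        exact hgen g
      | h2 a b ha hb =>
        rw [map_add, Int.cast_add, add_sub_add_comm]
        exact Submodule.add_mem _ ha hb
      | h3 a ha =>
        rw [map_neg, Int.cast_neg, neg_sub_neg, ← neg_sub]
        exact Submodule.neg_mem _ ha
      | h0 => simp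
    have h := key u
    rw [hu, Int.cast_zero, sub_zero] at h
    exact h
  · rintro ⟨z, rfl⟩
    rw [foxD1, Fintype.linearCombination_apply, map_sum]
    refine Finset.sum_eq_zero fun i _ => ?_
    rw [smul_eq_mul, map_mul, map_sub, aug_elt, map_one, sub_self, mul_zero]

end Group

section Htpy

variable {H : Type} [Group H]

/-- a homotopy equivalence with a Fox complex, in low degrees -/
theorem he_data (D : ChainComplex (ModuleCat.{0} (ZG H)) ℕ) (P : FinPresentation H)
    (e : HomotopyEquiv D (foxCC P)) :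
    ∃ (f0 : D.X 0 →ₗ[ZG H] ZG H) (f1 : D.X 1 →ₗ[ZG H] (Fin P.gens → ZG H))
      (f2 : D.X 2 →ₗ[ZG H] (Fin P.rels → ZG H)) (g0 : ZG H →ₗ[ZG H] D.X 0)
      (g1 : (Fin P.gens → ZG H) →ₗ[ZG H] D.X 1) (g2 : (Fin P.rels → ZG H) →ₗ[ZG H] D.X 2)
      (h0 : D.X 0 →ₗ[ZG H] D.X 1) (h1 : D.X 1 →ₗ[ZG H] D.X 2) (h2 : D.X 2 →ₗ[ZG H] D.X 3)
      (k1 : (Fin P.gens → ZG H) →ₗ[ZG H] (Fin P.rels → ZG H)),
      (∀ y, f0 ((D.d 1 0).hom y) = foxD1 P (f1 y)) ∧
      (∀ y, f1 ((D.d 2 1).hom y) = foxD2 P (f2 y)) ∧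
      (∀ y, f2 ((D.d 3 2).hom y) = 0) ∧
      (∀ u, (D.d 1 0).hom (g1 u) = g0 (foxD1 P u)) ∧
      (∀ u, (D.d 2 1).hom (g2 u) = g1 (foxD2 P u)) ∧
      (∀ x, g0 (f0 x) = (D.d 1 0).hom (h0 x) + x) ∧
      (∀ x, g1 (f1 x) = h0 ((D.d 1 0).hom x) + (D.d 2 1).hom (h1 x) + x) ∧
      (∀ x, g2 (f2 x) = h1 ((D.d 2 1).hom x) + (D.d 3 2).hom (h2 x) + x) ∧
      (∀ x, f2 (g2 x) = k1 (foxD2 P x) + x) := by
  have hf : ∀ (i : ℕ) (x : D.X (i + 1)), (e.hom.f i).hom ((D.d (i + 1) i).hom x) =
      ((foxCC P).d (i + 1) i).hom ((e.hom.f (i + 1)).hom x) := by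
    intro i x
    exact (LinearMap.congr_fun (congrArg ModuleCat.Hom.hom (e.hom.comm (i + 1) i)) x).symm
  have hg : ∀ (i : ℕ) (x : (foxCC P).X (i + 1)),
      (e.inv.f i).hom (((foxCC P).d (i + 1) i).hom x) =
      (D.d (i + 1) i).hom ((e.inv.f (i + 1)).hom x) := by
    intro i x
    exact (LinearMap.congr_fun (congrArg ModuleCat.Hom.hom (e.inv.comm (i + 1) i)) x).symm
  refine ⟨(e.hom.f 0).hom, (e.hom.f 1).hom, (e.hom.f 2).hom, (e.inv.f 0).hom, (e.inv.f 1).hom,
    (e.inv.f 2).hom, (e.homotopyHomInvId.hom 0 1).hom, (e.homotopyHomInvId.hom 1 2).hom,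
    (e.homotopyHomInvId.hom 2 3).hom, (e.homotopyInvHomId.hom 1 2).hom, ?_, ?_, ?_, ?_, ?_, ?_,
    ?_, ?_, ?_⟩
  · intro y
    exact (hf 0 y).trans (fox_d10 P _)
  · intro y
    exact (hf 1 y).trans (fox_d21 P _)
  · intro y
    have h3 := hf 2 y
    have h4 := fox_subsingleton P 0
    have h5 : (e.hom.f 3).hom y = 0 := Subsingleton.elim _ _
    rw [h5, map_zero] at h3
    exact h3
  · intro u
    have h3 := hg 0 u
    exact h3.symm.trans (congrArg (e.inv.f 0).hom (fox_d10 P u))
  · intro u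
    have h3 := hg 1 u
    exact h3.symm.trans (congrArg (e.inv.f 1).hom (fox_d21 P u))
  · intro x
    have h3 := e.homotopyHomInvId.comm 0
    rw [Homotopy.dNext_zero_chainComplex, Homotopy.prevD_chainComplex, zero_add] at h3
    exact LinearMap.congr_fun (congrArg ModuleCat.Hom.hom h3) x
  · intro x
    have h3 := e.homotopyHomInvId.comm 1
    rw [Homotopy.dNext_succ_chainComplex, Homotopy.prevD_chainComplex] at h3
    exact LinearMap.congr_fun (congrArg ModuleCat.Hom.hom h3) x
  · intro x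
    have h3 := e.homotopyHomInvId.comm 2
    rw [Homotopy.dNext_succ_chainComplex, Homotopy.prevD_chainComplex] at h3
    exact LinearMap.congr_fun (congrArg ModuleCat.Hom.hom h3) x
  · have key : ∀ x : (foxCC P).X 2, (e.hom.f 2).hom ((e.inv.f 2).hom x) =
        (e.homotopyInvHomId.hom 1 2).hom (((foxCC P).d 2 1).hom x) + x := by
      intro x
      have h3 := e.homotopyInvHomId.comm 2
      rw [Homotopy.dNext_succ_chainComplex, Homotopy.prevD_chainComplex] at h3
      have h4 := LinearMap.congr_fun (congrArg ModuleCat.Hom.hom h3) x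
      have h5 := fox_subsingleton P 0
      have h6 : (e.homotopyInvHomId.hom 2 3).hom x = 0 := Subsingleton.elim _ _
      have h7 : (e.hom.f 2).hom ((e.inv.f 2).hom x) =
          (e.homotopyInvHomId.hom 1 2).hom (((foxCC P).d 2 1).hom x) +
            ((foxCC P).d 3 2).hom ((e.homotopyInvHomId.hom 2 3).hom x) + x := h4
      rw [h6, map_zero, add_zero] at h7
      exact h7
    intro x
    have h8 := key x
    have h9 : (e.homotopyInvHomId.hom 1 2).hom (((foxCC P).d 2 1).hom x) =
        (e.homotopyInvHomId.hom 1 2).hom (foxD2 P x) :=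
      congrArg (e.homotopyInvHomId.hom 1 2).hom (fox_d21 P x)
    rw [h9] at h8
    exact h8

end Htpy

end Vale.Agent.P246.H816
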