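import Vale.Agent.P246.Bdl.B2
import Mathlib.GroupTheory.Coprod.Basic

/-! # P246.FreeFactor: definitions and literal rows -/

namespace Vale.Agent.P246.H816

open Vale.Agent.P246

/-- What is used of the free product `H = G * F_n`: the inclusion `ι` of `G`, the retraction `ρ`
killing the free generators `t j`, and the derivation `D` with `D (ι g) = 0`, `D (t j) = e_j`. -/
structure FF (G H : Type) [Group G] [Group H] (n : ℕ) where
  ι : G →* H
  ρ : H →* G
  t : Fin n → H
  ρι : ∀ g, ρ (ι g) = g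
  ρt : ∀ j, ρ (t j) = 1
  ker : ρ.ker = Subgroup.normalClosure (Set.range t)
  gen : Subgroup.closure (Set.range ι ∪ Set.range t) = ⊤
  D : H → Fin n → ZG H
  D_mul : ∀ a b, D (a * b) = D a + elt a • D b
  D_ι : ∀ g, D (ι g) = 0
  D_t : ∀ j, D (t j) = Pi.single j 1

/-- The ring homomorphism `ℤ[G] → ℤ[H]` of a group homomorphism. -/
noncomputable def rh {G H : Type} [Group G] [Group H] (φ : G →* H) : ZG G →+* ZG H :=
  MonoidAlgebra.mapDomainRingHom ℤ φ

/-- Base change of a linear map between free modules with bases. -/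
noncomputable def up {R S : Type} [Ring R] [Ring S] (φ : R →+* S) {a b : ℕ}
    (M : (Fin a → R) →ₗ[R] (Fin b → R)) : (Fin a → S) →ₗ[S] (Fin b → S) :=
  Fintype.linearCombination S fun i k => φ (M (Pi.single i 1) k)

/-- ROW GRP: the free product `G * F_n`. The derivation: let `H` act on `Fin n → ℤ[H]` by affine
maps (`Equiv.Perm`), `g ↦ (x ↦ ι g • x)`, `t j ↦ (x ↦ t j • x + e_j)` (`Monoid.Coprod.lift`,
`FreeGroup.lift`), and put `D h = h acting on 0`. -/
def SpecGRP : Prop := ∀ (G : Type) [Group G] (n : ℕ),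
  Nonempty (FF G (Monoid.Coprod G (FreeGroup (Fin n))) n)

/-- ROW FLAT: `ℤ[H]` is flat (free with basis `ker ρ`) over `ℤ[G]` for a retract `G` of `H`.
Proof: the additive map `Φ : ℤ[H] → (H →₀ ℤ[G])`, `h ↦ single (h * ι (ρ h)⁻¹) (ρ h)` satisfies
`Φ (s * ι r) ν = Φ s ν * r` and `s = ∑_ν ν * ι (Φ s ν)`. -/
def SpecFLAT : Prop := ∀ (G H : Type) [Group G] [Group H] (ι : G →* H) (ρ : H →* G),
  (∀ g, ρ (ι g) = g) → ∀ (a b c : ℕ) (M : (Fin a → ZG G) →ₗ[ZG G] (Fin b → ZG G))
    (N : (Fin c → ZG G) →ₗ[ZG G] (Fin a → ZG G)), (∀ x, M x = 0 → ∃ y, N y = x) →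
    ∀ v : Fin a → ZG H, up (rh ι) M v = 0 → ∃ w, up (rh ι) N w = v

/-- ROW PRES: killing the `t j` in a presentation of `H` gives a presentation of `G`. -/
def SpecPRES : Prop := ∀ (G H : Type) [Group G] [Group H] (ρ : H →* G) (n : ℕ) (t : Fin n → H),
  Function.Surjective ρ → ρ.ker = Subgroup.normalClosure (Set.range t) →
  ∀ (P : FinPresentation H) (w : Fin n → FreeGroup (Fin P.gens)),
    (∀ j, FreeGroup.lift P.x (w j) = t j) →
    ∃ (hs : Function.Surjective (FreeGroup.lift fun i => ρ (P.x i)))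
      (hk : (FreeGroup.lift fun i => ρ (P.x i)).ker =
        Subgroup.normalClosure (Set.range (Fin.append P.r w))),
      let Q : FinPresentation G := ⟨P.gens, P.rels + n, fun i => ρ (P.x i), Fin.append P.r w, hs, hk⟩
      (∀ u : Fin P.gens → ZG H, foxD1 Q (fun i => rh ρ (u i)) = rh ρ (foxD1 P u)) ∧
      ∀ (x : Fin P.rels → ZG H) (l : Fin n → ZG G),
        foxD2 Q (Fin.append (fun i => rh ρ (x i)) l) =
          fun k => rh ρ (foxD2 P x k) + ∑ j, l j * rh ρ (foxWord P.x (w j).toWord k)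

end Vale.Agent.P246.H816
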