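import Vale.Agent.P246.R3.H816.Base

/-! # P246.FreeFactor: killing the free generators -/

namespace Vale.Agent.P246.H816

open Vale.Agent.P246 CategoryTheory Function

variable {G H : Type} [Group G] [Group H]

/-- exactness of the Fox complex in degree one -/
def SpecFox : Prop := ∀ (G : Type) [Group G] (P : FinPresentation G) (x : Fin P.gens → ZG G),
  foxD1 P x = 0 → ∃ t : Fin P.rels → ZG G, foxD2 P t = x

theorem descend {n : ℕ} (F : FF G H n) (hPres : SpecPRES) (hFox : SpecFox)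
    (C : ChainComplex (ModuleCat.{0} (ZG G)) ℕ) (hC : D2Data G C)
    (D : ChainComplex (ModuleCat.{0} (ZG H)) ℕ) (P : FinPresentation H)
    (e : HomotopyEquiv D (foxCC P))
    (p0 : D.X 0 →+ C.X 0) (p1 : D.X 1 →+ C.X 1) (pi : D.X 1 →+ (Fin n → ZG G))
    (p2 : D.X 2 →+ C.X 2) (p3 : D.X 3 →+ C.X 3)
    (l0 : ∀ (s : ZG H) v, p0 (s • v) = rh F.ρ s • p0 v)
    (l1 : ∀ (s : ZG H) v, p1 (s • v) = rh F.ρ s • p1 v)
    (lpi : ∀ (s : ZG H) v, pi (s • v) = rh F.ρ s • pi v)
    (l2 : ∀ (s : ZG H) v, p2 (s • v) = rh F.ρ s • p2 v)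
    (hp2 : Surjective p2) (hp3 : Surjective p3)
    (Z1 : ∀ (A : Type) [AddCommGroup A] [Module (ZG G) A] (q : D.X 1 →+ A),
      (∀ (s : ZG H) v, q (s • v) = rh F.ρ s • q v) → ∀ v, p1 v = 0 → pi v = 0 → q v = 0)
    (Z2 : ∀ (A : Type) [AddCommGroup A] [Module (ZG G) A] (q : D.X 2 →+ A),
      (∀ (s : ZG H) v, q (s • v) = rh F.ρ s • q v) → ∀ v, p2 v = 0 → q v = 0)
    (c1 : ∀ v, p0 ((D.d 1 0).hom v) = (C.d 1 0).hom (p1 v))
    (c2 : ∀ v, p1 ((D.d 2 1).hom v) = (C.d 2 1).hom (p2 v))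
    (c3 : ∀ v, p2 ((D.d 3 2).hom v) = (C.d 3 2).hom (p3 v))
    (cpi : ∀ v, pi ((D.d 2 1).hom v) = 0)
    (E : Fin n → D.X 1) (hE1 : ∀ j, p1 (E j) = 0) (hE2 : ∀ j, pi (E j) = Pi.single j 1)
    (x0 : D.X 0) (hEd : ∀ j, (D.d 1 0).hom (E j) = (elt (F.t j) - 1) • x0)
    (ε : C.X 0 →+ ℤ) (hεg : ∀ (g : G) (x : C.X 0), ε (elt g • x) = ε x)
    (hεk : ∀ x, ε x = 0 ↔ ∃ y, (C.d 1 0).hom y = x) (hx0 : ε (p0 x0) = 1) :
    ∃ Q : FinPresentation G, Nonempty (HomotopyEquiv C (foxCC Q)) := by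
  obtain ⟨f0, f1, f2, g0, g1, g2, h0, h1, h2, k1, df1, df2, df3, dg1, dg2, H0, H1, H2, K2⟩ :=
    he_data D P e
  have hρs : Surjective F.ρ := fun g => ⟨F.ι g, F.ρι g⟩
  choose w hw using fun j => P.surj (F.t j)
  obtain ⟨hs, hk, hQ1, hQ2⟩ := hPres G H F.ρ n F.t hρs F.ker P w hw
  set Q : FinPresentation G := ⟨P.gens, P.rels + n, fun i => F.ρ (P.x i), Fin.append P.r w, hs, hk⟩
    with hQ
  have hrr : ∀ x : ZG G, rh F.ρ (rh F.ι x) = x := rh_rh F.ι F.ρ F.ρι
  -- the words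
  let W : Fin n → (Fin P.gens → ZG H) := fun j => foxWord P.x (w j).toWord
  have hW : ∀ j, foxD1 P (W j) = elt (F.t j) - 1 := by
    intro j
    have h3 := foxWord_formula P.x (w j).toWord
    rw [FreeGroup.mk_toWord, hw] at h3
    exact h3
  have hVQ : ∀ (x : Fin P.rels → ZG H) (m : Fin n → ZG H),
      foxD2 Q (Fin.append (fun i => rh F.ρ (x i)) (fun j => rh F.ρ (m j))) =
        fun k => rh F.ρ ((foxD2 P x + ∑ j, m j • W j) k) := by
    intro x m
    rw [hQ2]
    funext k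
    rw [Pi.add_apply, map_add, Finset.sum_apply, map_sum]
    congr 1
    refine Finset.sum_congr rfl fun j _ => ?_
    rw [Pi.smul_apply, smul_eq_mul, map_mul]
  have ht0 : ∀ j, rh F.ρ (elt (F.t j) - 1) = 0 := by
    intro j
    rw [map_sub, rh_elt, F.ρt, map_one, elt_one', sub_self]
  -- signs
  set s : ℤ := aug H (f0 x0) with hs_def
  have hg0 : ∀ a : ZG H, ε (p0 (g0 a)) = aug H a * ε (p0 (g0 1)) := by
    intro a
    have h3 : g0 a = a • g0 1 := by rw [← map_smul, smul_eq_mul, mul_one]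
    rw [h3, l0, eps_smul ε hεg, aug_rh]
  have hss : s * ε (p0 (g0 1)) = 1 := by
    rw [hs_def, ← hg0, H0, map_add, map_add, hx0, c1]
    have h3 : ε ((C.d 1 0).hom (p1 (h0 x0))) = 0 := (hεk _).2 ⟨_, rfl⟩
    rw [h3, zero_add]
  have hs1 : s = 1 ∨ s = -1 := Int.eq_one_or_neg_one_of_mul_eq_one hss
  have hs' : ε (p0 (g0 1)) = s := by
    rcases hs1 with h | h <;> rw [h] at hss ⊢ <;> omega
  have hsq : s * s = 1 := by rw [hs'] at hss; exact hss
  -- f1 (E j)
  obtain ⟨y', hy'⟩ := (aug_gen P (f0 x0 - (s : ZG H))).1 (by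
    rw [map_sub, map_intCast, hs_def, Int.cast_id, sub_self])
  have hz : ∀ j, ∃ z, foxD2 P z = f1 (E j) - s • W j - (elt (F.t j) - 1 : ZG H) • y' := by
    intro j
    apply hFox
    have h3 : ((s : ZG H)) * (elt (F.t j) - 1) = (elt (F.t j) - 1) * s :=
      (Int.cast_commute s (elt (F.t j) - 1 : ZG H)).eq
    rw [map_sub, map_sub, ← df1, hEd, map_smul, map_zsmul, hW, map_smul, hy', smul_eq_mul,
      smul_eq_mul, mul_sub, zsmul_eq_mul, h3]
    abel
  choose z hz using hz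
  have hg1 : ∀ j, g1 (f1 (E j)) = (elt (F.t j) - 1 : ZG H) • h0 x0 +
      (D.d 2 1).hom (h1 (E j)) + E j := by
    intro j
    rw [H1, hEd, map_smul]
  have hsW : ∀ j, s • W j = f1 (E j) - (elt (F.t j) - 1 : ZG H) • y' - foxD2 P (z j) := by
    intro j
    rw [hz j]
    abel
  have hpW : ∀ j, s • p1 (g1 (W j)) = (C.d 2 1).hom (p2 (h1 (E j)) - p2 (g2 (z j))) := by
    intro j
    rw [← map_zsmul, ← map_zsmul, hsW, map_sub, map_sub, map_sub, map_sub, hg1, map_add, map_add,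
      LinearMap.map_smul g1, l1, l1, ht0, zero_smul, zero_smul, hE1, c2, ← dg2, c2,
      map_sub]
    abel
  have hpiW : ∀ j, s • pi (g1 (W j)) = Pi.single j 1 := by
    intro j
    rw [← map_zsmul, ← map_zsmul, hsW, map_sub, map_sub, map_sub, map_sub, hg1, map_add, map_add,
      LinearMap.map_smul g1, lpi, lpi, ht0, zero_smul, zero_smul, hE2, cpi, ← dg2, cpi]
    abel
  let q : Fin n → C.X 2 := fun j => s • (p2 (h1 (E j)) - p2 (g2 (z j)))
  have hq : ∀ j, (C.d 2 1).hom (q j) = p1 (g1 (W j)) := by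
    intro j
    change (C.d 2 1).hom (s • _) = _
    rw [map_zsmul, ← hpW, smul_smul, hsq, one_smul]
  -- the maps
  let F0 : ZG G →ₗ[ZG G] C.X 0 := LinearMap.toSpanSingleton (ZG G) (C.X 0) (p0 (g0 1))
  let F1 : (Fin P.gens → ZG G) →ₗ[ZG G] C.X 1 :=
    Fintype.linearCombination (ZG G) fun i => p1 (g1 (Pi.single i 1))
  let F2 : (Fin (P.rels + n) → ZG G) →ₗ[ZG G] C.X 2 :=
    Fintype.linearCombination (ZG G) (Fin.append (fun j => p2 (g2 (Pi.single j 1))) q)
  have hF0 : ∀ a : ZG H, F0 (rh F.ρ a) = p0 (g0 a) := by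
    intro a
    have h3 : g0 a = a • g0 1 := by rw [← map_smul, smul_eq_mul, mul_one]
    rw [h3, l0]
    rfl
  have hF1 : ∀ u : Fin P.gens → ZG H, F1 (fun i => rh F.ρ (u i)) = p1 (g1 u) := by
    intro u
    have h3 : F1 (fun i => rh F.ρ (u i)) = ∑ i, rh F.ρ (u i) • p1 (g1 (Pi.single i 1)) :=
      Fintype.linearCombination_apply _ _ _
    rw [h3, lin_sum g1 u, map_sum]
    refine Finset.sum_congr rfl fun i _ => ?_
    rw [l1]
  have hF2 : ∀ (x : Fin P.rels → ZG H) (m : Fin n → ZG H),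
      F2 (Fin.append (fun i => rh F.ρ (x i)) (fun j => rh F.ρ (m j))) =
        p2 (g2 x) + ∑ j, rh F.ρ (m j) • q j := by
    intro x m
    have h3 : F2 (Fin.append (fun i => rh F.ρ (x i)) (fun j => rh F.ρ (m j))) =
        ∑ i, (Fin.append (fun i => rh F.ρ (x i)) (fun j => rh F.ρ (m j)) i : ZG G) •
          (Fin.append (fun j => p2 (g2 (Pi.single j 1))) q i : C.X 2) :=
      Fintype.linearCombination_apply _ _ _
    rw [h3, Fin.sum_univ_add, lin_sum g2 x, map_sum]
    congr 1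
    · refine Finset.sum_congr rfl fun i _ => ?_
      rw [Fin.append_left, Fin.append_left, l2]
    · refine Finset.sum_congr rfl fun i _ => ?_
      rw [Fin.append_right, Fin.append_right]
  -- lifts
  have lift1 : ∀ u : Fin P.gens → ZG G, ∃ u' : Fin P.gens → ZG H, u = fun i => rh F.ρ (u' i) :=
    fun u => ⟨fun i => rh F.ι (u i), funext fun i => (hrr _).symm⟩
  have lift2 : ∀ u : Fin (P.rels + n) → ZG G, ∃ (x : Fin P.rels → ZG H) (m : Fin n → ZG H),
      u = Fin.append (fun i => rh F.ρ (x i)) (fun j => rh F.ρ (m j)) := by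
    intro u
    refine ⟨fun i => rh F.ι (u (Fin.castAdd n i)), fun j => rh F.ι (u (Fin.natAdd P.rels j)), ?_⟩
    funext i
    induction i using Fin.addCases with
    | left i => rw [Fin.append_left, hrr]
    | right i => rw [Fin.append_right, hrr]
  -- semilinear maps on the free modules
  have Ug : ∀ (A : Type) [AddCommGroup A] [Module (ZG G) A] (r : (Fin P.gens → ZG H) →+ A),
      (∀ (a : ZG H) v, r (a • v) = rh F.ρ a • r v) → ∀ v, (∀ i, rh F.ρ (v i) = 0) → r v = 0 :=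
    fun A _ _ r hr v hv => semi_zero r hr v hv
  refine ⟨Q, fox_equiv Q C hC.free F0 F1 F2 ?_ ?_ ?_ ?_ (hFox G Q) ?_ ?_ ?_ ?_⟩
  · intro u
    obtain ⟨u, rfl⟩ := lift1 u
    have h3 := hQ1 u
    have h4 : F1 (fun i => rh F.ρ (u i)) = p1 (g1 u) := hF1 u
    refine (congrArg (C.d 1 0).hom h4).trans ?_
    rw [← c1, dg1, ← hF0]
    exact congrArg F0 h3.symm
  · intro u
    obtain ⟨x, m, rfl⟩ := lift2 u
    have h3 := hVQ x m
    have h4 := hF2 x m
    refine (congrArg (C.d 2 1).hom h4).trans ?_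
    refine Eq.trans ?_ (congrArg F1 h3.symm)
    rw [hF1, map_add, map_add, map_add, ← dg2, c2, map_sum, map_sum, map_sum]
    congr 1
    refine Finset.sum_congr rfl fun j _ => ?_
    rw [map_smul, hq, map_smul, l1]
  · rintro x ⟨y, hy⟩
    refine (aug_gen Q x).1 ?_
    have h3 : ε (F0 x) = 0 := (hεk _).2 ⟨y, hy⟩
    rw [← hrr x, hF0, hg0, aug_rh, hs'] at h3
    rcases hs1 with h | h <;> rw [h] at h3 <;> omega
  · intro y
    have h3 : ε (y - F0 (((s * ε y : ℤ) : ZG G))) = 0 := by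
      have h4 : (((s * ε y : ℤ) : ZG G)) = rh F.ρ ((s * ε y : ℤ) : ZG H) := by rw [map_intCast]
      rw [map_sub, h4, hF0, hg0, map_intCast, Int.cast_id, hs', mul_right_comm, hsq, one_mul,
        sub_self]
    obtain ⟨v, hv⟩ := (hεk _).1 h3
    exact ⟨_, v, by rw [hv]; abel⟩
  · exact (exactAt_succ_iff C 0).1 hC.homology_one
  · intro u hu hy
    obtain ⟨x, m, rfl⟩ := lift2 u
    obtain ⟨y, hy⟩ := hy
    rw [hVQ x m] at hu
    have hu' : ∀ k, rh F.ρ ((foxD2 P x + ∑ j, m j • W j) k) = 0 := fun k => congrFun hu k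
    -- the coefficients of the new relators
    have h3 : pi (g1 (foxD2 P x + ∑ j, m j • W j)) = 0 :=
      Ug (Fin n → ZG G) (pi.comp g1.toAddMonoidHom) (by
        intro a v
        change pi (g1 (a • v)) = rh F.ρ a • pi (g1 v)
        rw [map_smul, lpi]) _ hu'
    have h4 : ∀ j, rh F.ρ (m j) = 0 := by
      intro j
      rw [map_add, map_add, ← dg2, cpi, zero_add, map_sum, map_sum] at h3
      have h5 : ∑ i, rh F.ρ (m i) • (Pi.single i 1 : Fin n → ZG G) = 0 := by
        have h6 : s • ∑ i, pi (g1 (m i • W i)) = 0 := by rw [h3, smul_zero]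
        rw [Finset.smul_sum] at h6
        rw [← h6]
        refine Finset.sum_congr rfl fun i _ => ?_
        rw [map_smul, lpi, smul_comm, hpiW]
      have h6 := congrFun h5 j
      rw [← vec_sum (fun i => rh F.ρ (m i))] at h6
      exact h6
    have h5 : F2 (Fin.append (fun i => rh F.ρ (x i)) (fun j => rh F.ρ (m j))) = p2 (g2 x) := by
      rw [hF2]
      have h6 : ∑ j, rh F.ρ (m j) • q j = 0 := Finset.sum_eq_zero fun j _ => by
        rw [h4, zero_smul]
      rw [h6, add_zero]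
    obtain ⟨y', rfl⟩ := hp3 y
    have h6 : p2 (g2 x - (D.d 3 2).hom y') = 0 := by
      rw [map_sub, c3, hy]
      exact sub_eq_zero.2 h5.symm
    let r2 : D.X 2 →+ (Fin P.rels → ZG G) :=
      { toFun := fun v i => rh F.ρ (f2 v i)
        map_zero' := by funext i; rw [map_zero, Pi.zero_apply, map_zero]; rfl
        map_add' := fun v v' => by funext i; rw [map_add, Pi.add_apply, map_add]; rfl }
    have h7 : r2 (g2 x - (D.d 3 2).hom y') = 0 := Z2 (Fin P.rels → ZG G) r2 (by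
      intro a v
      funext i
      change rh F.ρ (f2 (a • v) i) = rh F.ρ a * rh F.ρ (f2 v i)
      rw [map_smul, Pi.smul_apply, smul_eq_mul, map_mul]) _ h6
    have h8 : ∀ k, rh F.ρ (foxD2 P x k) = 0 := by
      intro k
      have h9 := hu' k
      rw [Pi.add_apply, map_add, Finset.sum_apply, map_sum] at h9
      have h10 : ∑ j, rh F.ρ ((m j • W j) k) = 0 := Finset.sum_eq_zero fun j _ => by
        rw [Pi.smul_apply, smul_eq_mul, map_mul, h4, zero_mul]
      rw [h10, add_zero] at h9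
      exact h9
    let r1 : (Fin P.gens → ZG H) →+ (Fin P.rels → ZG G) :=
      { toFun := fun v i => rh F.ρ (k1 v i)
        map_zero' := by funext i; rw [map_zero, Pi.zero_apply, map_zero]; rfl
        map_add' := fun v v' => by funext i; rw [map_add, Pi.add_apply, map_add]; rfl }
    have h9 : r1 (foxD2 P x) = 0 := Ug (Fin P.rels → ZG G) r1 (by
      intro a v
      funext i
      change rh F.ρ (k1 (a • v) i) = rh F.ρ a * rh F.ρ (k1 v i)
      rw [map_smul, Pi.smul_apply, smul_eq_mul, map_mul]) _ h8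
    have h10 : ∀ i, rh F.ρ (x i) = 0 := by
      intro i
      have h11 : rh F.ρ (f2 (g2 x - (D.d 3 2).hom y') i) = 0 := congrFun h7 i
      have h12 : rh F.ρ (k1 (foxD2 P x) i) = 0 := congrFun h9 i
      rw [map_sub, df3, sub_zero, K2, Pi.add_apply, map_add, h12, zero_add] at h11
      exact h11
    funext i
    induction i using Fin.addCases with
    | left i => rw [Fin.append_left, h10]; rfl
    | right i => rw [Fin.append_right, h4]; rfl
  · intro y hy
    obtain ⟨y, rfl⟩ := hp2 y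
    have a1 : p1 ((D.d 2 1).hom y) = 0 := by rw [c2, hy]
    have a2 : pi ((D.d 2 1).hom y) = 0 := cpi y
    let r1 : D.X 1 →+ (Fin P.gens → ZG G) :=
      { toFun := fun v i => rh F.ρ (f1 v i)
        map_zero' := by funext i; rw [map_zero, Pi.zero_apply, map_zero]; rfl
        map_add' := fun v v' => by funext i; rw [map_add, Pi.add_apply, map_add]; rfl }
    have h3 : r1 ((D.d 2 1).hom y) = 0 := Z1 (Fin P.gens → ZG G) r1 (by
      intro a v
      funext i
      change rh F.ρ (f1 (a • v) i) = rh F.ρ a * rh F.ρ (f1 v i)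
      rw [map_smul, Pi.smul_apply, smul_eq_mul, map_mul]) _ a1 a2
    have h4 : p2 (h1 ((D.d 2 1).hom y)) = 0 := Z1 (C.X 2) (p2.comp h1.toAddMonoidHom) (by
      intro a v
      change p2 (h1 (a • v)) = rh F.ρ a • p2 (h1 v)
      rw [map_smul, l2]) _ a1 a2
    refine ⟨Fin.append (fun i => rh F.ρ (f2 y i)) (fun j => rh F.ρ ((0 : Fin n → ZG H) j)), ?_,
      -(p3 (h2 y)), ?_⟩
    · rw [hVQ]
      funext k
      have h5 : ∑ j, (0 : Fin n → ZG H) j • W j = 0 := Finset.sum_eq_zero fun j _ => by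
        rw [Pi.zero_apply, zero_smul]
      rw [h5, add_zero, ← df2]
      exact congrFun h3 k
    · rw [hF2]
      have h5 : ∑ j, rh F.ρ ((0 : Fin n → ZG H) j) • q j = 0 := Finset.sum_eq_zero fun j _ => by
        rw [Pi.zero_apply, map_zero, zero_smul]
      rw [h5, add_zero, H2, map_add, map_add, h4, c3, map_neg, zero_add]
      abel
  · intro i y hy
    exact (exactAt_succ_iff C (i + 2)).1 (hC.homology_high (i + 3) (by omega)) y hy

end Vale.Agent.P246.H816
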