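import Vale.Agent.P246.R3.H816.Desc
import Vale.Agent.P246.R3.H675.Ind

/-! # P246.FreeFactor: the induced complex with the free generators added -/

namespace Vale.Agent.P246.H816

open Vale.Agent.P246 CategoryTheory Function

section

variable {G H : Type} [Group G] [Group H] {n : ℕ} (F : FF G H n)
  (c : ℕ → ℕ) (d : ∀ i, (Fin (c (i + 1)) → ZG G) →ₗ[ZG G] (Fin (c i) → ZG G))
  (x0 : Fin (c 0) → ZG G)

/-- the modules -/
noncomputable def indX (H : Type) [Group H] (n : ℕ) (c : ℕ → ℕ) : ℕ → ModuleCat.{0} (ZG H)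
  | 0 => ModuleCat.of (ZG H) (Fin (c 0) → ZG H)
  | 1 => ModuleCat.of (ZG H) ((Fin (c 1) → ZG H) × (Fin n → ZG H))
  | i + 2 => ModuleCat.of (ZG H) (Fin (c (i + 2)) → ZG H)

/-- the boundary maps -/
noncomputable def indD : ∀ i, indX H n c (i + 1) ⟶ indX H n c i
  | 0 => ModuleCat.ofHom (H675.bd1 F (d 0) x0)
  | 1 => ModuleCat.ofHom (LinearMap.inl (ZG H) (Fin (c 1) → ZG H) (Fin n → ZG H) ∘ₗ
      up (rh F.ι) (d 1))
  | i + 2 => ModuleCat.ofHom (up (rh F.ι) (d (i + 2)))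

theorem up_up (hdd : ∀ i x, d i (d (i + 1) x) = 0) (i : ℕ) (v : Fin (c (i + 2)) → ZG H) :
    up (rh F.ι) (d i) (up (rh F.ι) (d (i + 1)) v) = 0 := by
  rw [up_comp]
  have h : d i ∘ₗ d (i + 1) = 0 := LinearMap.ext fun x => hdd i x
  rw [h, up_zero]

theorem indD_comp (hdd : ∀ i x, d i (d (i + 1) x) = 0) :
    ∀ i, indD F c d x0 (i + 1) ≫ indD F c d x0 i = 0
  | 0 => by
    apply ModuleCat.hom_ext
    apply LinearMap.ext
    intro (v : Fin (c 2) → ZG H)
    change H675.bd1 F (d 0) x0 (up (rh F.ι) (d 1) v, 0) = 0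
    rw [H675.bd1, LinearMap.coprod_apply, map_zero, add_zero]
    exact up_up F c d hdd 0 v
  | 1 => by
    apply ModuleCat.hom_ext
    apply LinearMap.ext
    intro (v : Fin (c 3) → ZG H)
    change (up (rh F.ι) (d 1) (up (rh F.ι) (d 2) v), (0 : Fin n → ZG H)) = 0
    rw [up_up F c d hdd 1 v]
    rfl
  | i + 2 => by
    apply ModuleCat.hom_ext
    apply LinearMap.ext
    intro (v : Fin (c (i + 4)) → ZG H)
    change up (rh F.ι) (d (i + 2)) (up (rh F.ι) (d (i + 3)) v) = 0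
    exact up_up F c d hdd (i + 2) v

/-- the complex -/
noncomputable def ind (hdd : ∀ i x, d i (d (i + 1) x) = 0) :
    ChainComplex (ModuleCat.{0} (ZG H)) ℕ :=
  ChainComplex.of (indX H n c) (indD F c d x0) (indD_comp F c d x0 hdd)

theorem ind_d (hdd : ∀ i x, d i (d (i + 1) x) = 0) (i : ℕ) :
    (ind F c d x0 hdd).d (i + 1) i = indD F c d x0 i :=
  ChainComplex.of_d (indX H n c) (indD F c d x0) i

theorem ind_d10 (hdd : ∀ i x, d i (d (i + 1) x) = 0)
    (v : (Fin (c 1) → ZG H) × (Fin n → ZG H)) :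
    ((ind F c d x0 hdd).d 1 0).hom v = H675.bd1 F (d 0) x0 v :=
  LinearMap.congr_fun (congrArg ModuleCat.Hom.hom (ind_d F c d x0 hdd 0)) v

theorem ind_d21 (hdd : ∀ i x, d i (d (i + 1) x) = 0) (v : Fin (c 2) → ZG H) :
    ((ind F c d x0 hdd).d 2 1).hom v = (up (rh F.ι) (d 1) v, (0 : Fin n → ZG H)) :=
  LinearMap.congr_fun (congrArg ModuleCat.Hom.hom (ind_d F c d x0 hdd 1)) v

theorem ind_d32 (hdd : ∀ i x, d i (d (i + 1) x) = 0) (i : ℕ) (v : Fin (c (i + 3)) → ZG H) :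
    ((ind F c d x0 hdd).d (i + 3) (i + 2)).hom v = up (rh F.ι) (d (i + 2)) v :=
  LinearMap.congr_fun (congrArg ModuleCat.Hom.hom (ind_d F c d x0 hdd (i + 2))) v

theorem ind_free : ∀ i, Module.Free (ZG H) (indX H n c i)
  | 0 => inferInstanceAs (Module.Free (ZG H) (Fin (c 0) → ZG H))
  | 1 => inferInstanceAs (Module.Free (ZG H) ((Fin (c 1) → ZG H) × (Fin n → ZG H)))
  | i + 2 => inferInstanceAs (Module.Free (ZG H) (Fin (c (i + 2)) → ZG H))

theorem ind_finite : ∀ i, Module.Finite (ZG H) (indX H n c i)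
  | 0 => inferInstanceAs (Module.Finite (ZG H) (Fin (c 0) → ZG H))
  | 1 => inferInstanceAs (Module.Finite (ZG H) ((Fin (c 1) → ZG H) × (Fin n → ZG H)))
  | i + 2 => inferInstanceAs (Module.Finite (ZG H) (Fin (c (i + 2)) → ZG H))

/-- the `D(2)` property of the complex -/
theorem ind_data (hdd : ∀ i x, d i (d (i + 1) x) = 0) (N : ℕ) (hN : ∀ i, N < i → c i = 0)
    (ε : (Fin (c 0) → ZG G) →+ ℤ) (hεg : ∀ (g : G) x, ε (elt g • x) = ε x)
    (hεk : ∀ x, ε x = 0 ↔ ∃ y, d 0 y = x) (hx0 : ε x0 = 1)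
    (hex1 : ∀ y, d 0 y = 0 → ∃ x, d 1 x = y)
    (hex : ∀ i y, d (i + 2) y = 0 → ∃ x, d (i + 3) x = y)
    (s : (Fin (c 2) → ZG G) →ₗ[ZG G] (Fin (c 3) → ZG G))
    (hs : ∀ x, d 2 (s (d 2 x)) = d 2 x) : D2Data H (ind F c d x0 hdd) where
  free := ind_free c
  finite := ind_finite c
  bounded := by
    refine ⟨N + 1, fun i hi => ?_⟩
    obtain ⟨j, rfl⟩ : ∃ j, i = j + 2 := ⟨i - 2, by omega⟩
    have h := hN (j + 2) (by omega)
    have h2 : IsEmpty (Fin (c (j + 2))) := by rw [h]; infer_instance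
    exact inferInstanceAs (Subsingleton (Fin (c (j + 2)) → ZG H))
  homology_zero := by
    obtain ⟨ε', h1, h2, h3, -⟩ := H675.bd1_coker F (d 0) ε hεg hεk x0 hx0
    refine ⟨ε', h1, h2, fun x => (h3 x).trans ?_⟩
    constructor
    · rintro ⟨y, hy⟩
      exact ⟨y, (ind_d10 F c d x0 hdd y).trans hy⟩
    · rintro ⟨y, hy⟩
      exact ⟨y, (ind_d10 F c d x0 hdd y).symm.trans hy⟩
  homology_one := by
    rw [exactAt_succ_iff]
    intro x hx
    obtain ⟨u, w⟩ := x
    have h1 : H675.bd1 F (d 0) x0 (u, w) = 0 := (ind_d10 F c d x0 hdd (u, w)).symm.trans hx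
    obtain ⟨rfl, y, rfl⟩ := H675.bd1_exact F (d 0) (d 1) hex1 ε hεg
      (fun y => (hεk _).2 ⟨y, rfl⟩) x0 hx0 u w h1
    exact ⟨y, ind_d21 F c d x0 hdd y⟩
  homology_high := by
    intro i hi
    obtain ⟨j, rfl⟩ : ∃ j, i = j + 3 := ⟨i - 3, by omega⟩
    rw [exactAt_succ_iff]
    intro x hx
    have h1 : up (rh F.ι) (d (j + 2)) x = 0 := (ind_d32 F c d x0 hdd j x).symm.trans hx
    obtain ⟨y, hy⟩ := H675.row G H F.ι F.ρ F.ρι _ _ _ (d (j + 2)) (d (j + 3)) (hex j) x h1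
    exact ⟨y, (ind_d32 F c d x0 hdd (j + 1) y).trans hy⟩
  cohomology_three := by
    intro M _ _ _ φ hφ
    let S : (Fin (c 2) → ZG H) →ₗ[ZG H] (Fin (c 3) → ZG H) := up (rh F.ι) s
    let φ' : (Fin (c 3) → ZG H) →ₗ[ZG H] M := φ
    have hφ' : ∀ x : Fin (c 4) → ZG H, φ' (up (rh F.ι) (d 3) x) = 0 := by
      intro x
      rw [← hφ x]
      exact congrArg φ' (ind_d32 F c d x0 hdd 1 x).symm
    have key : ∀ x : Fin (c 3) → ZG H, φ' x = φ' (S (up (rh F.ι) (d 2) x)) := by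
      intro x
      have h1 : up (rh F.ι) (d 2) (x - S (up (rh F.ι) (d 2) x)) = 0 := by
        rw [map_sub]
        change _ - up (rh F.ι) (d 2) (up (rh F.ι) s (up (rh F.ι) (d 2) x)) = 0
        rw [up_comp, up_comp]
        have h2 : (d 2 ∘ₗ s) ∘ₗ d 2 = d 2 := LinearMap.ext fun y => hs y
        rw [h2, sub_self]
      obtain ⟨y, hy⟩ := H675.row G H F.ι F.ρ F.ρι _ _ _ (d 2) (d 3) (hex 0) _ h1
      have h3 := hφ' y
      rw [hy, map_sub, sub_eq_zero] at h3
      exact h3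
    refine ⟨φ' ∘ₗ S, fun x => (key x).trans ?_⟩
    exact congrArg (fun z => φ' (S z)) (ind_d32 F c d x0 hdd 0 x).symm

end

theorem main {G H : Type} [Group G] [Group H] {n : ℕ} (F : FF G H n) (hPres : SpecPRES)
    (hFox : SpecFox) (hH : AlgebraicD2Property H) : AlgebraicD2Property G := by
  intro C hC'
  have hC : D2Data G C := hC'.data
  change ∃ Q : FinPresentation G, Nonempty (HomotopyEquiv C (foxCC Q))
  revert hC
  clear hC'
  revert C
  intro (C : ChainComplex (ModuleCat.{0} (ZG G)) ℕ) hC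
  have hc : ∀ i, ∃ m : ℕ, Nonempty (C.X i ≃ₗ[ZG G] (Fin m → ZG G)) := fun i => by
    have := hC.free i
    have := hC.finite i
    let b := Module.Free.chooseBasis (ZG G) (C.X i)
    exact ⟨_, ⟨(b.reindex (Fintype.equivFin _)).equivFun⟩⟩
  choose c e using hc
  replace e := fun i => (e i).some
  let d : ∀ i, (Fin (c (i + 1)) → ZG G) →ₗ[ZG G] (Fin (c i) → ZG G) :=
    fun i => (e i).toLinearMap ∘ₗ (C.d (i + 1) i).hom ∘ₗ (e (i + 1)).symm.toLinearMap
  have hd : ∀ i x, d i x = e i ((C.d (i + 1) i).hom ((e (i + 1)).symm x)) := fun i x => rfl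
  have hdd : ∀ i x, d i (d (i + 1) x) = 0 := by
    intro i x
    rw [hd, hd, LinearEquiv.symm_apply_apply]
    have h := dd_zero C (i + 2) (i + 1) i ((e (i + 2)).symm x)
    have h' : (C.d (i + 1) i).hom ((C.d (i + 2) (i + 1)).hom ((e (i + 2)).symm x)) = 0 := h
    rw [h', map_zero]
  obtain ⟨N, hN⟩ := hC.bounded
  have hN' : ∀ i, N < i → c i = 0 := by
    intro i hi
    have h1 := hN i hi
    have h2 : Subsingleton (Fin (c i) → ZG G) := (e i).symm.toEquiv.subsingleton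
    by_contra h3
    have h4 : (1 : ZG G) = 0 := congrFun (Subsingleton.elim (fun _ => 1) (fun _ => 0) :
      (fun _ => 1 : Fin (c i) → ZG G) = fun _ => 0) ⟨0, Nat.pos_of_ne_zero h3⟩
    exact one_ne_zero h4
  obtain ⟨ε, hεs, hεg, hεk⟩ := hC.homology_zero
  obtain ⟨y0, hy0⟩ := hεs 1
  let ε' : (Fin (c 0) → ZG G) →+ ℤ := ε.comp (e 0).symm.toLinearMap.toAddMonoidHom
  have hε' : ∀ x, ε' x = ε ((e 0).symm x) := fun x => rfl
  have hεg' : ∀ (g : G) x, ε' (elt g • x) = ε' x := by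
    intro g x
    rw [hε', map_smul, hεg, hε']
  have hεk1 : ∀ x, ε x = 0 ↔ ∃ y, (C.d 1 0).hom y = x := hεk
  have hεk' : ∀ x, ε' x = 0 ↔ ∃ y, d 0 y = x := by
    intro x
    rw [hε', hεk1]
    constructor
    · rintro ⟨y, hy⟩
      refine ⟨e 1 y, ?_⟩
      rw [hd, LinearEquiv.symm_apply_apply, hy, LinearEquiv.apply_symm_apply]
    · rintro ⟨y, rfl⟩
      refine ⟨(e 1).symm y, ?_⟩
      rw [hd, LinearEquiv.symm_apply_apply]
  have ex : ∀ i, (∀ x, (C.d (i + 1) i).hom x = 0 → ∃ y, (C.d (i + 2) (i + 1)).hom y = x) →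
      ∀ y, d i y = 0 → ∃ x, d (i + 1) x = y := by
    intro i h y hy
    have h1 : (C.d (i + 1) i).hom ((e (i + 1)).symm y) = 0 := by
      rw [hd] at hy
      exact (LinearEquiv.map_eq_zero_iff _).1 hy
    obtain ⟨z, hz⟩ := h _ h1
    refine ⟨e (i + 2) z, ?_⟩
    rw [hd, LinearEquiv.symm_apply_apply, hz, LinearEquiv.apply_symm_apply]
  have hex1 := ex 0 ((exactAt_succ_iff C 0).1 hC.homology_one)
  have hex : ∀ i y, d (i + 2) y = 0 → ∃ x, d (i + 3) x = y := fun i =>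
    ex (i + 2) ((exactAt_succ_iff C (i + 2)).1 (hC.homology_high (i + 3) (by omega)))
  -- the splitting
  obtain ⟨s, hs⟩ : ∃ s : C.X 2 →ₗ[ZG G] C.X 3,
      ∀ x, (C.d 3 2).hom (s ((C.d 3 2).hom x)) = (C.d 3 2).hom x := by
    have hfree := hC.free
    have hfin := hC.finite
    obtain ⟨ψ, hψ⟩ := hC.cohomology_three (LinearMap.range (C.d 3 2).hom)
      (C.d 3 2).hom.rangeRestrict (by
        intro x
        apply Subtype.ext
        exact dd_zero C 4 3 2 x)
    obtain ⟨s, hs⟩ := Module.projective_lifting_property (C.d 3 2).hom.rangeRestrict ψ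
      (LinearMap.surjective_rangeRestrict _)
    refine ⟨s, fun x => ?_⟩
    have h1 := LinearMap.congr_fun hs ((C.d 3 2).hom x)
    have h2 := hψ x
    exact congrArg Subtype.val (h1.trans h2.symm)
  let s' : (Fin (c 2) → ZG G) →ₗ[ZG G] (Fin (c 3) → ZG G) :=
    (e 3).toLinearMap ∘ₗ s ∘ₗ (e 2).symm.toLinearMap
  have hs' : ∀ x, d 2 (s' (d 2 x)) = d 2 x := by
    intro x
    have h1 : s' (d 2 x) = e 3 (s ((e 2).symm (d 2 x))) := rfl
    rw [h1, hd, hd, LinearEquiv.symm_apply_apply, LinearEquiv.symm_apply_apply, hs]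
  have hx0 : ε' (e 0 y0) = 1 := by rw [hε', LinearEquiv.symm_apply_apply, hy0]
  have hD := ind_data F c d (e 0 y0) hdd N hN' ε' hεg' hεk' hx0 hex1 hex s' hs'
  obtain ⟨P, ⟨E⟩⟩ := hH (ind F c d (e 0 y0) hdd) (D2Data.isD2 _ hD)
  -- the semilinear maps
  have hrr : ∀ x : ZG G, rh F.ρ (rh F.ι x) = x := rh_rh F.ι F.ρ F.ρι
  let cw : ∀ a : ℕ, (Fin a → ZG H) →+ (Fin a → ZG G) := fun a =>
    { toFun := fun v i => rh F.ρ (v i)
      map_zero' := by funext i; rw [Pi.zero_apply, map_zero]; rfl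
      map_add' := fun v v' => by funext i; rw [Pi.add_apply, map_add]; rfl }
  have cws : ∀ a (r : ZG H) v, cw a (r • v) = rh F.ρ r • cw a v := by
    intro a r v
    funext i
    change rh F.ρ (r * v i) = rh F.ρ r * rh F.ρ (v i)
    rw [map_mul]
  have cwsurj : ∀ a, Surjective (cw a) := fun a v =>
    ⟨fun i => rh F.ι (v i), funext fun i => hrr _⟩
  let p : ∀ i, (Fin (c i) → ZG H) →+ C.X i := fun i =>
    (e i).symm.toLinearMap.toAddMonoidHom.comp (cw (c i))
  have hp : ∀ i v, p i v = (e i).symm (cw (c i) v) := fun i v => rfl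
  have ps : ∀ i (r : ZG H) v, p i (r • v) = rh F.ρ r • p i v := by
    intro i r v
    rw [hp, cws, map_smul, hp]
  have psurj : ∀ i, Surjective (p i) := fun i => (e i).symm.surjective.comp (cwsurj _)
  have p0 : ∀ i v, p i v = 0 → ∀ k, rh F.ρ (v k) = 0 := by
    intro i v hv k
    rw [hp] at hv
    exact congrFun ((LinearEquiv.map_eq_zero_iff _).1 hv) k
  have pd : ∀ i v, p i (up (rh F.ι) (d i) v) = (C.d (i + 1) i).hom (p (i + 1) v) := by
    intro i v
    have h1 : cw (c i) (up (rh F.ι) (d i) v) = d i (cw (c (i + 1)) v) :=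
      up_down (rh F.ι) (rh F.ρ) hrr (d i) v
    rw [hp, h1, hd, LinearEquiv.symm_apply_apply, hp]
  let P1 : (Fin (c 1) → ZG H) × (Fin n → ZG H) →+ C.X 1 := (p 1).comp (AddMonoidHom.fst _ _)
  let PI : (Fin (c 1) → ZG H) × (Fin n → ZG H) →+ (Fin n → ZG G) :=
    (cw n).comp (AddMonoidHom.snd _ _)
  refine descend F hPres hFox C hC (ind F c d (e 0 y0) hdd) P E (p 0) P1 PI (p 2) (p 3) (ps 0)
    (fun r v => ps 1 r v.1) (fun r v => cws n r v.2) (ps 2) (psurj 2) (psurj 3) ?_ ?_ ?_ ?_ ?_ ?_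
    (fun j => ((0 : Fin (c 1) → ZG H), (Pi.single j 1 : Fin n → ZG H))) ?_ ?_
    (fun k => rh F.ι (e 0 y0 k)) ?_ ε hεg hεk1 ?_
  · intro A _ _ q hq v hv1 hv2
    let q' : (Fin (c 1) → ZG H) × (Fin n → ZG H) →+ A := q
    have h1 : q' (v.1, v.2) = q' (v.1, 0) + q' (0, v.2) := by
      rw [← map_add]
      congr 1
      simp
    have h2 : q' (v.1, 0) = 0 :=
      semi_zero (φ := rh F.ρ) (q'.comp (AddMonoidHom.inl _ _)) (by
        intro r u
        have h3 : ((r • u, 0) : (Fin (c 1) → ZG H) × (Fin n → ZG H)) = r • (u, 0) := by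
          rw [Prod.smul_mk, smul_zero]
        change q' (r • u, 0) = rh F.ρ r • q' (u, 0)
        rw [h3]
        exact hq r (u, 0)) v.1 (p0 1 v.1 hv1)
    have h4 : q' (0, v.2) = 0 :=
      semi_zero (φ := rh F.ρ) (q'.comp (AddMonoidHom.inr _ _)) (by
        intro r u
        have h3 : ((0, r • u) : (Fin (c 1) → ZG H) × (Fin n → ZG H)) = r • (0, u) := by
          rw [Prod.smul_mk, smul_zero]
        change q' (0, r • u) = rh F.ρ r • q' (0, u)
        rw [h3]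
        exact hq r (0, u)) v.2 (fun i => congrFun hv2 i)
    have h5 : q' (v.1, v.2) = 0 := by rw [h1, h2, h4, add_zero]
    exact h5
  · intro A _ _ q hq v hv
    exact semi_zero (φ := rh F.ρ) (a := c 2) q hq v (p0 2 v hv)
  · intro v
    refine (congrArg (p 0) (ind_d10 F c d (e 0 y0) hdd v)).trans ?_
    let v' : (Fin (c 1) → ZG H) × (Fin n → ZG H) := v
    change p 0 (H675.bd1 F (d 0) (e 0 y0) v') = (C.d 1 0).hom (p 1 v'.1)
    rw [H675.bd1, LinearMap.coprod_apply, map_add, Fintype.linearCombination_apply, map_sum]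
    have h1 : ∀ j, p 0 (v'.2 j • (elt (F.t j) - 1) • fun k => rh F.ι (e 0 y0 k)) = 0 := by
      intro j
      rw [ps, ps, map_sub, rh_elt, F.ρt, map_one, elt_one', sub_self, zero_smul, smul_zero]
    rw [Finset.sum_eq_zero (fun j _ => h1 j), add_zero]
    exact pd 0 v'.1
  · intro v
    refine (congrArg P1 (ind_d21 F c d (e 0 y0) hdd v)).trans ?_
    exact pd 1 v
  · intro v
    refine (congrArg (p 2) (ind_d32 F c d (e 0 y0) hdd 0 v)).trans ?_
    exact pd 2 v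
  · intro v
    refine (congrArg PI (ind_d21 F c d (e 0 y0) hdd v)).trans ?_
    exact map_zero (cw n)
  · intro j
    exact map_zero (p 1)
  · intro j
    funext k
    change rh F.ρ ((Pi.single j 1 : Fin n → ZG H) k) = (Pi.single j 1 : Fin n → ZG G) k
    rcases eq_or_ne k j with rfl | hk
    · rw [Pi.single_eq_same, Pi.single_eq_same, map_one]
    · rw [Pi.single_eq_of_ne hk, Pi.single_eq_of_ne hk, map_zero]
  · intro j
    refine (ind_d10 F c d (e 0 y0) hdd _).trans ?_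
    rw [H675.bd1, LinearMap.coprod_apply, map_zero, zero_add,
      Fintype.linearCombination_apply_single, one_smul]
    rfl
  · have h1 : p 0 (fun k => rh F.ι (e 0 y0 k)) = y0 := by
      rw [hp]
      have h2 : cw (c 0) (fun k => rh F.ι (e 0 y0 k)) = e 0 y0 := funext fun k => hrr _
      rw [h2, LinearEquiv.symm_apply_apply]
    exact (congrArg ε h1).trans hy0

end Vale.Agent.P246.H816
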