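import Vale.Agent.P246.R2.H925.Fox
import Mathlib.LinearAlgebra.Matrix.NonsingularInverse
import Vale.Agent.P246.R3.H808.Pres

/-! # P246.FreeFactor: unimodularity of the exponent matrix of a presentation killing `K` -/

namespace Vale.Agent.P246.H816

open Vale.Agent.P246 Vale.Agent.P246.H925

/-- exponent sums -/
def esum (p : ℕ) : FreeGroup (Fin p) →* Multiplicative (Fin p → ℤ) :=
  FreeGroup.lift fun i => Multiplicative.ofAdd (Pi.single i 1)

theorem lift_one (G : Type) [Group G] {p : ℕ} (w : FreeGroup (Fin p)) :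
    FreeGroup.lift (fun _ : Fin p => (1 : G)) w = 1 := by
  have h : FreeGroup.lift (fun _ : Fin p => (1 : G)) = 1 := by
    ext i
    simp
  rw [h]
  rfl

theorem fd_esum (G : Type) [Group G] {p : ℕ} (w : FreeGroup (Fin p)) (k : Fin p) :
    fd (fun _ : Fin p => (1 : G)) w k = (((Multiplicative.toAdd (esum p w)) k : ℤ) : ZG G) := by
  have hmul : ∀ a b : FreeGroup (Fin p), fd (fun _ : Fin p => (1 : G)) (a * b) =
      fd (fun _ : Fin p => (1 : G)) a + fd (fun _ : Fin p => (1 : G)) b := by
    intro a b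
    have h1 : (elt (1 : G) : ZG G) = 1 := rfl
    rw [fd_mul, lift_one, h1, one_smul]
  have h0 : fd (fun _ : Fin p => (1 : G)) (1 : FreeGroup (Fin p)) = 0 := fd_one _
  induction w using FreeGroup.induction_on with
  | C1 => rw [h0, map_one]; simp
  | of i =>
    rw [fd_of, esum, FreeGroup.lift_apply_of, toAdd_ofAdd]
    rcases eq_or_ne k i with rfl | hk
    · rw [Pi.single_eq_same, Pi.single_eq_same, Int.cast_one]
    · rw [Pi.single_eq_of_ne hk, Pi.single_eq_of_ne hk, Int.cast_zero]
  | inv_of i ih =>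
    have h1 := hmul (FreeGroup.of i)⁻¹ (FreeGroup.of i)
    rw [inv_mul_cancel, h0] at h1
    have h2 := congrFun h1 k
    rw [Pi.add_apply, ih, Pi.zero_apply] at h2
    rw [map_inv, toAdd_inv, Pi.neg_apply, Int.cast_neg]
    exact eq_neg_of_add_eq_zero_left h2.symm
  | mul a b iha ihb =>
    rw [hmul, Pi.add_apply, iha, ihb, map_mul, toAdd_mul, Pi.add_apply, Int.cast_add]

theorem unimod (G : Type) [Group G] {p q m : ℕ} (r : Fin q → FreeGroup (Fin p))
    (v : Fin m → FreeGroup (Fin p))
    (hv : Subgroup.normalClosure (Set.range r ∪ Set.range v) = ⊤) (hpq : q + m = p)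
    (y : Fin q → ZG G) (l : Fin m → ZG G)
    (h : ∀ k, ∑ j, y j * fd (fun _ : Fin p => (1 : G)) (r j) k +
      ∑ j, l j * fd (fun _ : Fin p => (1 : G)) (v j) k = 0) : y = 0 ∧ l = 0 := by
  subst hpq
  let T : Matrix (Fin (q + m)) (Fin (q + m)) ℤ := fun j k =>
    Multiplicative.toAdd (esum (q + m) (Fin.append r v j)) k
  let L : Submodule ℤ (Fin (q + m) → ℤ) := Submodule.span ℤ (Set.range T)
  let N : Subgroup (FreeGroup (Fin (q + m))) :=
    (AddSubgroup.toSubgroup L.toAddSubgroup).comap (esum (q + m))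
  have hN : N = ⊤ := by
    rw [eq_top_iff, ← hv]
    apply Subgroup.normalClosure_le_normal
    rintro _ (⟨j, rfl⟩ | ⟨j, rfl⟩)
    · change Multiplicative.toAdd (esum (q + m) (r j)) ∈ L
      refine Submodule.subset_span ⟨Fin.castAdd m j, ?_⟩
      change Multiplicative.toAdd (esum (q + m) (Fin.append r v (Fin.castAdd m j))) = _
      rw [Fin.append_left]
    · change Multiplicative.toAdd (esum (q + m) (v j)) ∈ L
      refine Submodule.subset_span ⟨Fin.natAdd q j, ?_⟩
      change Multiplicative.toAdd (esum (q + m) (Fin.append r v (Fin.natAdd q j))) = _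
      rw [Fin.append_right]
  have hk : ∀ k, ∃ U : Fin (q + m) → ℤ, ∑ j, U j • T j = Pi.single k 1 := by
    intro k
    apply (Submodule.mem_span_range_iff_exists_fun ℤ).1
    have h1 : FreeGroup.of k ∈ N := by rw [hN]; trivial
    have h2 : Multiplicative.toAdd (esum (q + m) (FreeGroup.of k)) ∈ L := h1
    rw [esum, FreeGroup.lift_apply_of, toAdd_ofAdd] at h2
    exact h2
  choose U hU using hk
  have hUT : (Matrix.of U) * T = 1 := by
    ext i k
    have h1 := congrFun (hU i) k
    rw [Finset.sum_apply] at h1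
    rw [Matrix.mul_apply, Matrix.one_apply]
    rw [Pi.single_apply] at h1
    simp only [Pi.smul_apply, smul_eq_mul] at h1
    simp only [Matrix.of_apply]
    rw [h1]
    exact if_congr eq_comm rfl rfl
  have hTU : T * (Matrix.of U) = 1 := mul_eq_one_comm.1 hUT
  let z : Fin (q + m) → ZG G := Fin.append y l
  have hz : ∀ k, ∑ j, z j * ((T j k : ℤ) : ZG G) = 0 := by
    intro k
    rw [Fin.sum_univ_add]
    rw [← h k]
    congr 1
    · refine Finset.sum_congr rfl fun j _ => ?_
      rw [fd_esum]
      change Fin.append y l (Fin.castAdd m j) * (((Multiplicative.toAdd (esum (q + m)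
        (Fin.append r v (Fin.castAdd m j)))) k : ℤ) : ZG G) = _
      rw [Fin.append_left, Fin.append_left]
    · refine Finset.sum_congr rfl fun j _ => ?_
      rw [fd_esum]
      change Fin.append y l (Fin.natAdd q j) * (((Multiplicative.toAdd (esum (q + m)
        (Fin.append r v (Fin.natAdd q j)))) k : ℤ) : ZG G) = _
      rw [Fin.append_right, Fin.append_right]
  have hz0 : ∀ i, z i = 0 := by
    intro i
    have h1 : ∑ k, (∑ j, z j * ((T j k : ℤ) : ZG G)) * ((U k i : ℤ) : ZG G) = 0 :=
      Finset.sum_eq_zero fun k _ => by rw [hz, zero_mul]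
    have h2 : ∑ k, (∑ j, z j * ((T j k : ℤ) : ZG G)) * ((U k i : ℤ) : ZG G) =
        ∑ j, z j * (((T * Matrix.of U) j i : ℤ) : ZG G) := by
      simp only [Finset.sum_mul, Matrix.mul_apply, Int.cast_sum, Finset.mul_sum, Int.cast_mul,
        Matrix.of_apply, mul_assoc]
      exact Finset.sum_comm
    rw [h2, hTU] at h1
    rw [← h1, Finset.sum_eq_single i]
    · rw [Matrix.one_apply_eq, Int.cast_one, mul_one]
    · intro j _ hj
      rw [Matrix.one_apply_ne hj, Int.cast_zero, mul_zero]
    · intro hi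
      exact absurd (Finset.mem_univ i) hi
  constructor
  · funext j
    have h1 := hz0 (Fin.castAdd m j)
    change Fin.append y l (Fin.castAdd m j) = 0 at h1
    rw [Fin.append_left] at h1
    exact h1
  · funext j
    have h1 := hz0 (Fin.natAdd q j)
    change Fin.append y l (Fin.natAdd q j) = 0 at h1
    rw [Fin.append_right] at h1
    exact h1

end Vale.Agent.P246.H816
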