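import Vale.Agent.P246.R3.H816.Uni
import Vale.Agent.P246.R3.H675.K1

/-! # P246.FreeFactor: unimodularity, surjectivity and the literal form for `H675.rel` -/

namespace Vale.Agent.P246.H816

open Vale.Agent.P246 Vale.Agent.P246.H925

theorem exists_coeff {p q m : ℕ} (r : Fin q → FreeGroup (Fin p))
    (v : Fin m → FreeGroup (Fin p))
    (hv : Subgroup.normalClosure (Set.range r ∪ Set.range v) = ⊤) (k : Fin p) :
    ∃ U : Fin (q + m) → ℤ, ∑ j, U j • Multiplicative.toAdd (esum p (Fin.append r v j)) =
      Pi.single k 1 := by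
  let L : Submodule ℤ (Fin p → ℤ) := Submodule.span ℤ (Set.range fun j : Fin (q + m) =>
    Multiplicative.toAdd (esum p (Fin.append r v j)))
  let N : Subgroup (FreeGroup (Fin p)) :=
    (AddSubgroup.toSubgroup L.toAddSubgroup).comap (esum p)
  have hN : N = ⊤ := by
    rw [eq_top_iff, ← hv]
    apply Subgroup.normalClosure_le_normal
    rintro _ (⟨j, rfl⟩ | ⟨j, rfl⟩)
    · change Multiplicative.toAdd (esum p (r j)) ∈ L
      refine Submodule.subset_span ⟨Fin.castAdd m j, ?_⟩
      change Multiplicative.toAdd (esum p (Fin.append r v (Fin.castAdd m j))) = _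
      rw [Fin.append_left]
    · change Multiplicative.toAdd (esum p (v j)) ∈ L
      refine Submodule.subset_span ⟨Fin.natAdd q j, ?_⟩
      change Multiplicative.toAdd (esum p (Fin.append r v (Fin.natAdd q j))) = _
      rw [Fin.append_right]
  apply (Submodule.mem_span_range_iff_exists_fun ℤ).1
  have h1 : FreeGroup.of k ∈ N := by rw [hN]; trivial
  have h2 : Multiplicative.toAdd (esum p (FreeGroup.of k)) ∈ L := h1
  rw [esum, FreeGroup.lift_apply_of, toAdd_ofAdd] at h2
  exact h2

theorem unimod_surj (G : Type) [Group G] {p q m : ℕ} (r : Fin q → FreeGroup (Fin p))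
    (v : Fin m → FreeGroup (Fin p))
    (hv : Subgroup.normalClosure (Set.range r ∪ Set.range v) = ⊤) (w : Fin p → ZG G) :
    ∃ (y : Fin q → ZG G) (l : Fin m → ZG G),
      H675.rel (fun _ => (1 : G)) r y + H675.rel (fun _ => (1 : G)) v l = w := by
  choose U hU using exists_coeff r v hv
  let z : Fin (q + m) → ZG G := fun j => ∑ k, w k * ((U k j : ℤ) : ZG G)
  refine ⟨fun j => z (Fin.castAdd m j), fun j => z (Fin.natAdd q j), ?_⟩
  funext i
  have h1 : ∀ {a : ℕ} (s : Fin a → FreeGroup (Fin p)) (y : Fin a → ZG G),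
      H675.rel (fun _ => (1 : G)) s y i =
        ∑ j, y j * (((Multiplicative.toAdd (esum p (s j))) i : ℤ) : ZG G) := by
    intro a s y
    rw [H675.rel, Fintype.linearCombination_apply, Finset.sum_apply]
    refine Finset.sum_congr rfl fun j _ => ?_
    rw [Pi.smul_apply, smul_eq_mul, fd_esum]
  have h2 : ∑ j : Fin (q + m), z j *
      (((Multiplicative.toAdd (esum p (Fin.append r v j))) i : ℤ) : ZG G) = w i := by
    have h3 : ∀ k, ∑ j : Fin (q + m), ((U k j : ℤ) : ZG G) *
        (((Multiplicative.toAdd (esum p (Fin.append r v j))) i : ℤ) : ZG G) =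
        (((Pi.single k 1 : Fin p → ℤ) i : ℤ) : ZG G) := by
      intro k
      rw [← hU k, Finset.sum_apply, Int.cast_sum]
      refine Finset.sum_congr rfl fun j _ => ?_
      rw [Pi.smul_apply, smul_eq_mul, Int.cast_mul]
    calc ∑ j : Fin (q + m), z j *
          (((Multiplicative.toAdd (esum p (Fin.append r v j))) i : ℤ) : ZG G)
        = ∑ j : Fin (q + m), ∑ k, w k * (((U k j : ℤ) : ZG G) *
          (((Multiplicative.toAdd (esum p (Fin.append r v j))) i : ℤ) : ZG G)) := by
          refine Finset.sum_congr rfl fun j _ => ?_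
          rw [Finset.sum_mul]
          exact Finset.sum_congr rfl fun k _ => mul_assoc _ _ _
      _ = ∑ k, w k * (((Pi.single k 1 : Fin p → ℤ) i : ℤ) : ZG G) := by
          rw [Finset.sum_comm]
          refine Finset.sum_congr rfl fun k _ => ?_
          rw [← Finset.mul_sum, h3]
      _ = w i := by
          rw [Finset.sum_eq_single i]
          · rw [Pi.single_eq_same, Int.cast_one, mul_one]
          · intro k _ hk
            rw [Pi.single_eq_of_ne hk.symm, Int.cast_zero, mul_zero]
          · intro hi
            exact absurd (Finset.mem_univ i) hi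
  rw [Pi.add_apply, h1, h1, ← h2, Fin.sum_univ_add]
  congr 1
  · refine Finset.sum_congr rfl fun j _ => ?_
    rw [Fin.append_left]
  · refine Finset.sum_congr rfl fun j _ => ?_
    rw [Fin.append_right]

theorem unimod_inj (G : Type) [Group G] {p q m : ℕ} (r : Fin q → FreeGroup (Fin p))
    (v : Fin m → FreeGroup (Fin p))
    (hv : Subgroup.normalClosure (Set.range r ∪ Set.range v) = ⊤) (hpq : q + m = p)
    (y : Fin q → ZG G) (l : Fin m → ZG G)
    (h : H675.rel (fun _ => (1 : G)) r y + H675.rel (fun _ => (1 : G)) v l = 0) :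
    y = 0 ∧ l = 0 := by
  refine unimod G r v hv hpq y l fun k => ?_
  have h2 := congrFun h k
  rw [H675.rel, H675.rel, Fintype.linearCombination_apply, Fintype.linearCombination_apply,
    Pi.add_apply, Finset.sum_apply, Finset.sum_apply] at h2
  exact h2

end Vale.Agent.P246.H816
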